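import Vale.Agent.P088.R2.H591.C.Flat

/-!
# P088, stage 3: smooth steps `cs`, `sn` with `cs² + sn² = 1`

`cs = 1`, `sn = 0` on `(-∞, 0]`; `cs = 0`, `sn = 1` on `[1, ∞)`; all derivatives are bounded and
vanish off `(0, 1)`.
-/

open Set Filter
open scoped ContDiff Topology

noncomputable section

namespace Vale.Agent.P088.R2.H867.EP

/-- The angle of the step. -/
def an (t : ℝ) : ℝ := Real.pi / 2 * Real.smoothTransition t

/-- The decreasing step. -/
def cs (t : ℝ) : ℝ := Real.cos (an t)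

/-- The increasing step. -/
def sn (t : ℝ) : ℝ := Real.sin (an t)

theorem an_sm : ContDiff ℝ ∞ an := contDiff_const.mul Real.smoothTransition.contDiff

theorem an_nn (t : ℝ) : 0 ≤ an t :=
  mul_nonneg (by positivity) (Real.smoothTransition.nonneg t)

theorem an_le (t : ℝ) : an t ≤ Real.pi / 2 :=
  mul_le_of_le_one_right (by positivity) (Real.smoothTransition.le_one t)

theorem cs_sm : ContDiff ℝ ∞ cs := Real.contDiff_cos.comp an_sm

theorem sn_sm : ContDiff ℝ ∞ sn := Real.contDiff_sin.comp an_sm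

theorem cs_sn (t : ℝ) : cs t ^ 2 + sn t ^ 2 = 1 := Real.cos_sq_add_sin_sq (an t)

theorem cs_nn (t : ℝ) : 0 ≤ cs t :=
  Real.cos_nonneg_of_neg_pi_div_two_le_of_le (by have := an_nn t; have := Real.pi_pos; linarith)
    (an_le t)

theorem sn_nn (t : ℝ) : 0 ≤ sn t :=
  Real.sin_nonneg_of_nonneg_of_le_pi (an_nn t) (by have := an_le t; have := Real.pi_pos; linarith)

theorem cs_le (t : ℝ) : cs t ≤ 1 := Real.cos_le_one _

theorem sn_le (t : ℝ) : sn t ≤ 1 := Real.sin_le_one _

theorem cs_zero {t : ℝ} (h : t ≤ 0) : cs t = 1 := by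
  unfold cs an
  rw [Real.smoothTransition.zero_of_nonpos h]; simp

theorem sn_zero {t : ℝ} (h : t ≤ 0) : sn t = 0 := by
  unfold sn an
  rw [Real.smoothTransition.zero_of_nonpos h]; simp

theorem cs_one {t : ℝ} (h : 1 ≤ t) : cs t = 0 := by
  unfold cs an
  rw [Real.smoothTransition.one_of_one_le h]; simp

theorem sn_one {t : ℝ} (h : 1 ≤ t) : sn t = 1 := by
  unfold sn an
  rw [Real.smoothTransition.one_of_one_le h]; simp

/-- **Steps**: smooth functions with values in `[0, 1]`, locally constant off `(0, 1)`. -/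
structure Stp (H : ℝ → ℝ) : Prop where
  sm : ContDiff ℝ ∞ H
  nn : ∀ t, 0 ≤ H t
  le : ∀ t, H t ≤ 1
  c0 : ∃ c, ∀ t ≤ 0, H t = c
  c1 : ∃ c, ∀ t, 1 ≤ t → H t = c

theorem cs_stp : Stp cs := ⟨cs_sm, cs_nn, cs_le, ⟨1, fun _ => cs_zero⟩, ⟨0, fun _ => cs_one⟩⟩

theorem sn_stp : Stp sn := ⟨sn_sm, sn_nn, sn_le, ⟨0, fun _ => sn_zero⟩, ⟨1, fun _ => sn_one⟩⟩

/-- **Pairs of steps**: `F false` decreases from `1` to `0`, `F true` increases from `0` to `1`,
the sum of the squares is `1`. -/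
structure Pair (F : Bool → ℝ → ℝ) : Prop where
  stp : ∀ b, Stp (F b)
  sq : ∀ t, F false t ^ 2 + F true t ^ 2 = 1
  f1 : ∀ t, 1 ≤ t → F false t = 0
  t0 : ∀ t ≤ 0, F true t = 0

/-- The simple pair. -/
def fac (b : Bool) : ℝ → ℝ := if b then sn else cs

theorem fac_pair : Pair fac where
  stp b := by
    unfold fac
    split_ifs
    · exact sn_stp
    · exact cs_stp
  sq t := cs_sn t
  f1 _ h := cs_one h
  t0 _ h := sn_zero h

open Vale.Agent.P088.R2.H591.C in
/-- The flat pair of helper591. -/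
def flt (M : ℕ) (b : Bool) : ℝ → ℝ := if b then c2 M else c1 M

open Vale.Agent.P088.R2.H591.C in
theorem flt_pair {M : ℕ} (hM : M ≠ 0) : Pair (flt M) where
  stp b := by
    unfold flt
    split_ifs
    · exact ⟨c2_cd M, c2_nonneg M, c2_le M, ⟨0, fun _ h => c2_zero hM h⟩,
        ⟨1, fun _ h => c2_one M h⟩⟩
    · exact ⟨c1_cd M, c1_nonneg M, c1_le M, ⟨1, fun _ h => c1_one hM h⟩,
        ⟨0, fun _ h => c1_zero M h⟩⟩
  sq t := c12 M t
  f1 _ h := c1_zero M h
  t0 _ h := c2_zero hM h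

variable {H : ℝ → ℝ}

theorem Stp.abs_le (h : Stp H) (t : ℝ) : |H t| ≤ 1 := by
  rw [abs_of_nonneg (h.nn t)]; exact h.le t

/-- Derivatives of positive order vanish off `(0, 1)`. -/
theorem Stp.vanish (h : Stp H) {j : ℕ} (hj : 1 ≤ j) {t : ℝ} (ht : t ≤ 0 ∨ 1 ≤ t) :
    iteratedDeriv j H t = 0 := by
  have hc : Continuous (iteratedDeriv j H) :=
    h.sm.continuous_iteratedDeriv j (by exact_mod_cast le_top)
  have key : ∀ (c : ℝ) (V : Set ℝ), IsOpen V → (∀ s ∈ V, H s = c) → ∀ s ∈ V,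
      iteratedDeriv j H s = 0 := by
    intro c V hV hc s hs
    have e : H =ᶠ[𝓝 s] fun _ => c := by
      filter_upwards [hV.mem_nhds hs] with w hw using hc w hw
    rw [e.iteratedDeriv_eq j]
    have e2 : iteratedDeriv j (fun _ : ℝ => c) s = 0 := by
      rw [iteratedDeriv_const]
      split_ifs with h0
      · omega
      · rfl
    exact e2
  have hcl : IsClosed {s | iteratedDeriv j H s = 0} := isClosed_eq hc continuous_const
  rcases ht with ht | ht
  · obtain ⟨c, h0⟩ := h.c0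
    have h1 : Iio (0 : ℝ) ⊆ {s | iteratedDeriv j H s = 0} := fun s hs =>
      key c (Iio 0) isOpen_Iio (fun s hs => h0 s (le_of_lt hs)) s hs
    have h2 : closure (Iio (0 : ℝ)) ⊆ {s | iteratedDeriv j H s = 0} := hcl.closure_subset_iff.2 h1
    rw [closure_Iio] at h2
    exact h2 ht
  · obtain ⟨c, h0⟩ := h.c1
    have h1 : Ioi (1 : ℝ) ⊆ {s | iteratedDeriv j H s = 0} := fun s hs =>
      key c (Ioi 1) isOpen_Ioi (fun s hs => h0 s (le_of_lt hs)) s hs
    have h2 : closure (Ioi (1 : ℝ)) ⊆ {s | iteratedDeriv j H s = 0} := hcl.closure_subset_iff.2 h1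
    rw [closure_Ioi] at h2
    exact h2 ht

/-- All derivatives are bounded. -/
theorem Stp.bdd (h : Stp H) (j : ℕ) : ∃ B, 1 ≤ B ∧ ∀ t, |iteratedDeriv j H t| ≤ B := by
  have hc : Continuous (iteratedDeriv j H) :=
    h.sm.continuous_iteratedDeriv j (by exact_mod_cast le_top)
  obtain ⟨C, hC⟩ := (isCompact_Icc (a := (0 : ℝ)) (b := 1)).exists_bound_of_continuousOn
    hc.continuousOn
  refine ⟨max 1 C, le_max_left _ _, fun t => ?_⟩
  rcases Nat.eq_zero_or_pos j with rfl | hj
  · rw [iteratedDeriv_zero]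
    exact (h.abs_le t).trans (le_max_left _ _)
  · by_cases ht : t ∈ Icc (0 : ℝ) 1
    · exact (hC t ht).trans (le_max_right _ _)
    · have h1 : t ≤ 0 ∨ 1 ≤ t := by
        by_contra hcon
        push Not at hcon
        exact ht ⟨hcon.1.le, hcon.2.le⟩
      rw [h.vanish hj h1]
      simp

/-- Families of pairs with a common bound of the derivatives of order `≤ 2`. -/
structure PB {ι : Type*} (F : ι → Bool → ℝ → ℝ) (B : ℝ) : Prop where
  pair : ∀ i, Pair (F i)
  one : 1 ≤ B
  bd : ∀ i b j, j ≤ 2 → ∀ t, |iteratedDeriv j (F i b) t| ≤ B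

/-- Finite families have a common bound. -/
theorem exists_PB {ι : Type*} (S : Finset ι) (hS : ∀ i, i ∈ S) {F : ι → Bool → ℝ → ℝ}
    (hF : ∀ i, Pair (F i)) : ∃ B, PB F B := by
  choose C h1 hC using fun (i : ι) (b : Bool) (j : ℕ) => ((hF i).stp b).bdd j
  have hp : ∀ i b j, 0 ≤ C i b j := fun i b j => zero_le_one.trans (h1 i b j)
  refine ⟨1 + ∑ i ∈ S, (C i false 0 + C i false 1 + C i false 2 + C i true 0 + C i true 1 +
    C i true 2), hF, ?_, ?_⟩
  · have : 0 ≤ ∑ i ∈ S, (C i false 0 + C i false 1 + C i false 2 + C i true 0 + C i true 1 +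
      C i true 2) := Finset.sum_nonneg fun i _ => by
        linarith [hp i false 0, hp i false 1, hp i false 2, hp i true 0, hp i true 1, hp i true 2]
    linarith
  · intro i b j hj t
    refine (hC i b j t).trans ?_
    have h := Finset.single_le_sum (f := fun i => C i false 0 + C i false 1 + C i false 2 +
      C i true 0 + C i true 1 + C i true 2) (fun i _ => by
        linarith [hp i false 0, hp i false 1, hp i false 2, hp i true 0, hp i true 1, hp i true 2])
      (hS i)
    have k1 := hp i false 0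
    have k2 := hp i false 1
    have k3 := hp i false 2
    have k4 := hp i true 0
    have k5 := hp i true 1
    have k6 := hp i true 2
    obtain rfl | rfl | rfl : j = 0 ∨ j = 1 ∨ j = 2 := by omega
    all_goals cases b <;> linarith

end Vale.Agent.P088.R2.H867.EP
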