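import Vale.Agent.P088.R2.H867.EP.Var

/-!
# P088, stage 3: first derivatives of the cut variables in one direction

`du = |D_v u|`, `dr = |D_v ρ| / ρ`.
-/

open Set Filter
open scoped ContDiff Topology

noncomputable section

namespace Vale.Agent.P088.R2.H867.EP

open Vale.Agent.P088.R2.H932.EP (tauR tauU tauT)

variable {E : Type*} [NormedAddCommGroup E] [NormedSpace ℝ E] {u ρ : E → ℝ} {z v : E}

/-- Quotients. -/
theorem hf_div {f g : E → ℝ} {L M : E →L[ℝ] ℝ} (hf : HasFDerivAt f L z) (hg : HasFDerivAt g M z)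
    (h0 : g z ≠ 0) :
    HasFDerivAt (fun y => f y / g y) ((g z)⁻¹ • L - (f z / g z ^ 2) • M) z := by
  have h1 : HasFDerivAt (fun y => (g y)⁻¹) ((-(g z ^ 2)⁻¹) • M) z :=
    (hasDerivAt_inv h0).comp_hasFDerivAt z hg
  have h2 := hf.fun_mul h1
  have e : f z • ((-(g z ^ 2)⁻¹) • M) + (g z)⁻¹ • L = (g z)⁻¹ • L - (f z / g z ^ 2) • M := by
    refine ContinuousLinearMap.ext fun v => ?_
    simp only [_root_.smul_apply, _root_.sub_apply, _root_.add_apply, smul_eq_mul]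
    field_simp
    ring
  rw [e] at h2
  refine h2.congr_of_eventuallyEq (Eventually.of_forall fun y => ?_)
  exact div_eq_mul_inv _ _

theorem fd_tauR (c : ℝ) (hρ : DifferentiableAt ℝ ρ z) (v : E) :
    fderiv ℝ (tauR c ρ) z v = 2 / (3 * c ^ 2) * fderiv ℝ ρ z v := by
  have h : HasFDerivAt (tauR c ρ) ((2 / (3 * c ^ 2)) • fderiv ℝ ρ z) z := by
    have h1 := (hρ.hasFDerivAt.const_mul (2 / (3 * c ^ 2))).sub_const (c ^ 2 / (3 * c ^ 2))
    refine h1.congr_of_eventuallyEq (Eventually.of_forall fun y => ?_)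
    unfold tauR
    ring
  rw [h.fderiv]
  simp

theorem fd_tauD (a b : ℝ) (hρ : DifferentiableAt ℝ ρ z) (v : E) :
    fderiv ℝ (tauD a b ρ) z v = 2 / (b ^ 2 - a ^ 2) * fderiv ℝ ρ z v := by
  have h : HasFDerivAt (tauD a b ρ) ((2 / (b ^ 2 - a ^ 2)) • fderiv ℝ ρ z) z := by
    have h1 := (hρ.hasFDerivAt.const_mul (2 / (b ^ 2 - a ^ 2))).sub_const
      (a ^ 2 / (b ^ 2 - a ^ 2))
    refine h1.congr_of_eventuallyEq (Eventually.of_forall fun y => ?_)
    unfold tauD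
    ring
  rw [h.fderiv]
  simp

theorem fd_tauU (a w : ℝ) (hu : DifferentiableAt ℝ u z) (v : E) :
    fderiv ℝ (tauU a w u) z v = fderiv ℝ u z v / w := by
  have h : HasFDerivAt (tauU a w u) ((1 / w) • fderiv ℝ u z) z := by
    have h1 := (hu.hasFDerivAt.const_mul (1 / w)).sub_const (a / w)
    refine h1.congr_of_eventuallyEq (Eventually.of_forall fun y => ?_)
    unfold tauU
    ring
  rw [h.fderiv]
  simp only [_root_.smul_apply, smul_eq_mul]
  ring

/-- The cut `t`. -/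
theorem fd_tauT {c : ℝ} {K : ℝ → ℝ} (hc : 0 < c) (hK : 0 < K (u z)) {K' : ℝ}
    (hK' : HasDerivAt K K' (u z)) (hu : DifferentiableAt ℝ u z) (hρ : DifferentiableAt ℝ ρ z)
    (h0 : 0 < ρ z) (v : E) : fderiv ℝ (tauT c K u ρ) z v =
      (tauT c K u ρ z + 1) * (fderiv ℝ u z v * (1 - K' / K (u z)) + fderiv ℝ ρ z v / ρ z) := by
  have hk : HasFDerivAt (fun y => K (u y)) (K' • fderiv ℝ u z) z :=
    hK'.comp_hasFDerivAt z hu.hasFDerivAt
  have h1 := hf_div (hu.hasFDerivAt.exp.fun_mul hρ.hasFDerivAt) hk hK.ne'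
  have h2 := (h1.const_mul (2 / c)).sub_const 1
  have h : HasFDerivAt (tauT c K u ρ) _ z := h2.congr_of_eventuallyEq
    (Eventually.of_forall fun y => by
      unfold tauT
      field_simp)
  rw [h.fderiv]
  simp only [_root_.smul_apply, _root_.sub_apply, _root_.add_apply, smul_eq_mul]
  unfold tauT
  field_simp
  ring

theorem tauT_bd {c CK : ℝ} {K : ℝ → ℝ} (hc : 0 < c) (hK : 0 < K (u z)) {K' : ℝ}
    (hK' : HasDerivAt K K' (u z)) (hCK : |K'| ≤ CK * K (u z)) (hu : DifferentiableAt ℝ u z)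
    (hρ : DifferentiableAt ℝ ρ z) (h0 : 0 < ρ z) (h1 : tauT c K u ρ z ≤ 1) (v : E) :
    |fderiv ℝ (tauT c K u ρ) z v| ≤
      2 * ((1 + CK) * |fderiv ℝ u z v| + |fderiv ℝ ρ z v| / ρ z) := by
  rw [fd_tauT hc hK hK' hu hρ h0 v, abs_mul]
  have h2 : 0 ≤ tauT c K u ρ z + 1 := by
    unfold tauT
    have := Real.exp_pos (u z)
    have h3 : 0 ≤ 2 * Real.exp (u z) * ρ z / (c * K (u z)) := by positivity
    linarith
  have h3 : |tauT c K u ρ z + 1| ≤ 2 := by rw [abs_of_nonneg h2]; linarith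
  refine mul_le_mul h3 ?_ (abs_nonneg _) (by norm_num)
  refine (abs_add_le _ _).trans (add_le_add ?_ ?_)
  · rw [abs_mul, mul_comm]
    refine mul_le_mul_of_nonneg_right ?_ (abs_nonneg _)
    refine (abs_sub _ _).trans ?_
    rw [abs_one, abs_div, abs_of_pos hK]
    have : |K'| / K (u z) ≤ CK := by rwa [div_le_iff₀ hK]
    linarith
  · rw [abs_div, abs_of_pos h0]

/-- The cuts in `V(u)`. -/
theorem tauV_bd {V : ℝ → ℝ} {V' a w C : ℝ} (hw : 0 < w) (hV : HasDerivAt V V' (u z))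
    (hC : |V'| ≤ C) (hu : DifferentiableAt ℝ u z) (v : E) :
    |fderiv ℝ (tauU a w fun y => V (u y)) z v| ≤ C * |fderiv ℝ u z v| / w := by
  have h1 : HasFDerivAt (fun y => V (u y)) (V' • fderiv ℝ u z) z :=
    hV.comp_hasFDerivAt z hu.hasFDerivAt
  rw [fd_tauU a w h1.differentiableAt v, h1.fderiv, abs_div, abs_of_pos hw]
  refine div_le_div_of_nonneg_right ?_ hw.le
  rw [_root_.smul_apply, smul_eq_mul, abs_mul]
  exact mul_le_mul_of_nonneg_right hC (abs_nonneg _)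

/-- The cut `co`. -/
theorem tauM_bd {Λ C : ℝ} {M₁ : ℝ → ℝ} {M' : ℝ} (hΛ : 1 < Λ) (hm : 0 < M₁ (u z))
    (hM : HasDerivAt M₁ M' (u z)) (hC : |M'| ≤ C * M₁ (u z)) (hu : DifferentiableAt ℝ u z)
    (hρ : DifferentiableAt ℝ ρ z) (h0 : 0 < ρ z) (v : E) : |fderiv ℝ (tauM Λ M₁ u ρ) z v| ≤
      ((1 + C) * |fderiv ℝ u z v| + |fderiv ℝ ρ z v| / ρ z) / Real.log Λ := by
  have he := Real.exp_pos (u z)
  have hL := Real.log_pos hΛ
  set m := 2 * Real.exp (u z) * ρ z / M₁ (u z) with hmd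
  have hmp : 0 < m := by positivity
  have h1 := (hu.hasFDerivAt.exp.const_mul 2).fun_mul hρ.hasFDerivAt
  have hk : HasFDerivAt (fun y => M₁ (u y)) (M' • fderiv ℝ u z) z :=
    hM.comp_hasFDerivAt z hu.hasFDerivAt
  have h2 := hf_div h1 hk hm.ne'
  have h3 := (((h2.const_add 1).log (by positivity)).sub_const (Real.log 2)).const_mul
    (1 / Real.log Λ)
  have h4 : HasFDerivAt (tauM Λ M₁ u ρ) _ z := h3.congr_of_eventuallyEq
    (Eventually.of_forall fun y => by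
      unfold tauM
      ring)
  rw [h4.fderiv]
  simp only [_root_.smul_apply, _root_.sub_apply, _root_.add_apply, smul_eq_mul]
  have e : 1 / Real.log Λ * ((1 + m)⁻¹ * ((M₁ (u z))⁻¹ * (2 * Real.exp (u z) *
      fderiv ℝ ρ z v + ρ z * (2 * (Real.exp (u z) * fderiv ℝ u z v))) -
      2 * Real.exp (u z) * ρ z / M₁ (u z) ^ 2 * (M' * fderiv ℝ u z v))) =
      (m / (1 + m)) * (fderiv ℝ ρ z v / ρ z + fderiv ℝ u z v -
        (M' / M₁ (u z)) * fderiv ℝ u z v) / Real.log Λ := by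
    have h5 : (1 + m) ≠ 0 := by positivity
    have h6 : 2 * Real.exp (u z) * ρ z = m * M₁ (u z) := by
      rw [hmd]; field_simp
    have h7 : 2 * Real.exp (u z) * fderiv ℝ ρ z v + ρ z * (2 * (Real.exp (u z) * fderiv ℝ u z v)) =
        m * M₁ (u z) * (fderiv ℝ ρ z v / ρ z + fderiv ℝ u z v) := by
      rw [← h6]
      field_simp
    rw [h7, h6]
    field_simp
  rw [e, abs_div, abs_of_pos hL, abs_mul]
  refine div_le_div_of_nonneg_right ?_ hL.le
  have h8 : |m / (1 + m)| ≤ 1 := by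
    rw [abs_of_pos (by positivity), div_le_one (by positivity)]
    linarith
  refine (mul_le_of_le_one_left (abs_nonneg _) h8).trans ?_
  have h9 : |M' / M₁ (u z)| ≤ C := by
    rw [abs_div, abs_of_pos hm, div_le_iff₀ hm]
    exact hC
  refine (abs_sub _ _).trans ?_
  have h11 : |fderiv ℝ ρ z v / ρ z + fderiv ℝ u z v| ≤
      |fderiv ℝ ρ z v| / ρ z + |fderiv ℝ u z v| := by
    refine (abs_add_le _ _).trans (le_of_eq ?_)
    rw [abs_div, abs_of_pos h0]
  have h12 : |M' / M₁ (u z) * fderiv ℝ u z v| ≤ C * |fderiv ℝ u z v| := by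
    rw [abs_mul]
    exact mul_le_mul_of_nonneg_right h9 (abs_nonneg _)
  linarith

end Vale.Agent.P088.R2.H867.EP
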