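import Vale.Agent.P088.R2.H867.EP.Prod

/-!
# P088, stage 3: the partition `∑ χ² = 1` (cut tree)

```
inf ( true:  hi ( true: iH | false: fs ( true: iF | false: iS ) )
      false: rs ( true:  rS ( false: RSn | true: RSf )
                  false: r ( near: e0 ( z0 | eB ( t ( zI | z2a ) | co ( zB | z2b ) ) )
                             off:  far ( rp ( T1 | T2 | A1 ) ( P1 | P2 | A2 ) | Af ) ) ) )
```
Every zone is a path in the tree, `ch F τ k = ∏ F (cut) (side) (τ cut)`. Further cuts inside of a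
zone: `cut2_sq`.
-/

open Set Filter
open scoped ContDiff Topology

noncomputable section

namespace Vale.Agent.P088.R2.H867.EP

/-- The cuts. -/
inductive Cut
  | inf | hi | fs | rs | rS | r | e0 | eB | t | co | far | rp | T1 | T2 | P1 | P2
  deriving DecidableEq

/-- All cuts. -/
def cuts : Finset Cut :=
  {.inf, .hi, .fs, .rs, .rS, .r, .e0, .eB, .t, .co, .far, .rp, .T1, .T2, .P1, .P2}

theorem mem_cuts (c : Cut) : c ∈ cuts := by cases c <;> decide

/-- The zones. -/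
inductive Zo
  | iH | iF | iS | RSn | RSf | z0 | zI | z2a | zB | z2b | T1 | T2 | A1 | P1 | P2 | A2 | Af
  deriving DecidableEq

/-- All zones. -/
def zos : Finset Zo :=
  {.iH, .iF, .iS, .RSn, .RSf, .z0, .zI, .z2a, .zB, .z2b, .T1, .T2, .A1, .P1, .P2, .A2, .Af}

theorem mem_zos (k : Zo) : k ∈ zos := by cases k <;> decide

open Cut in
/-- The cuts met by a zone. -/
def path : Zo → Finset Cut
  | .iH => {inf, hi}
  | .iF => {inf, hi, fs}
  | .iS => {inf, hi, fs}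
  | .RSn => {inf, rs, rS}
  | .RSf => {inf, rs, rS}
  | .z0 => {inf, rs, r, e0}
  | .zI => {inf, rs, r, e0, eB, t}
  | .z2a => {inf, rs, r, e0, eB, t}
  | .zB => {inf, rs, r, e0, eB, co}
  | .z2b => {inf, rs, r, e0, eB, co}
  | .T1 => {inf, rs, r, far, rp, T1}
  | .T2 => {inf, rs, r, far, rp, T1, T2}
  | .A1 => {inf, rs, r, far, rp, T1, T2}
  | .P1 => {inf, rs, r, far, rp, P1}
  | .P2 => {inf, rs, r, far, rp, P1, P2}
  | .A2 => {inf, rs, r, far, rp, P1, P2}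
  | .Af => {inf, rs, r, far}

/-- The side of a zone with respect to a cut (`true`: the variable is positive). -/
def sd : Zo → Cut → Bool
  | .iH, _ => true
  | .iF, .inf => true
  | .iF, .fs => true
  | .iS, .inf => true
  | .RSn, .rs => true
  | .RSf, .rs => true
  | .RSf, .rS => true
  | .z0, _ => false
  | .zI, .e0 => true
  | .z2a, .e0 => true
  | .z2a, .t => true
  | .zB, .e0 => true
  | .zB, .eB => true
  | .z2b, .e0 => true
  | .z2b, .eB => true
  | .z2b, .co => true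
  | .T1, .r => true
  | .T2, .r => true
  | .T2, .T1 => true
  | .A1, .r => true
  | .A1, .T1 => true
  | .A1, .T2 => true
  | .P1, .r => true
  | .P1, .rp => true
  | .P2, .r => true
  | .P2, .rp => true
  | .P2, .P1 => true
  | .A2, .r => true
  | .A2, .rp => true
  | .A2, .P1 => true
  | .A2, .P2 => true
  | .Af, .r => true
  | .Af, .far => true
  | _, _ => false

variable {E : Type*} {F : Cut → Bool → ℝ → ℝ} {B : ℝ}

/-- The cut-off of a zone. -/
def ch (F : Cut → Bool → ℝ → ℝ) (τ : Cut → E → ℝ) (k : Zo) : E → ℝ := pr F (path k) (sd k) τ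

theorem sum_zo (f : Zo → ℝ) : ∑ k ∈ zos, f k = (f .iH + (f .iF + f .iS)) + ((f .RSn + f .RSf) +
    (f .z0 + (f .zI + f .z2a + (f .zB + f .z2b)) +
    ((f .T1 + (f .T2 + f .A1)) + (f .P1 + (f .P2 + f .A2)) + f .Af))) := by
  unfold zos
  repeat rw [Finset.sum_insert (by decide)]
  rw [Finset.sum_singleton]
  ring

/-- **The partition.** -/
theorem ch_sum (hF : ∀ i, Pair (F i)) (τ : Cut → E → ℝ) (z : E) :
    ∑ k ∈ zos, ch F τ k z ^ 2 = 1 := by
  rw [sum_zo]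
  have e : ∀ k, ch F τ k z = ∏ i ∈ path k, F i (sd k i) (τ i z) := fun k => rfl
  simp only [e, path]
  repeat rw [Finset.prod_insert (by decide)]
  simp only [Finset.prod_singleton, sd]
  have h : ∀ c, F c true (τ c z) ^ 2 = 1 - F c false (τ c z) ^ 2 := fun c => by
    linarith [(hF c).sq (τ c z)]
  simp only [mul_pow, h]
  ring

/-- A further cut. -/
theorem cut2_sq {G : Bool → ℝ → ℝ} (hG : Pair G) (χ τ : E → ℝ) (z : E) :
    (χ z * G false (τ z)) ^ 2 + (χ z * G true (τ z)) ^ 2 = χ z ^ 2 := by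
  have := hG.sq (τ z)
  rw [mul_pow, mul_pow, ← mul_add, this, mul_one]

theorem ch_nn (hF : ∀ i, Pair (F i)) (τ : Cut → E → ℝ) (k : Zo) (z : E) : 0 ≤ ch F τ k z :=
  pr_nn hF _ _ _ _

theorem ch_le (hF : ∀ i, Pair (F i)) (τ : Cut → E → ℝ) (k : Zo) (z : E) : ch F τ k z ≤ 1 :=
  pr_le hF _ _ _ _

section sm

variable [NormedAddCommGroup E] [NormedSpace ℝ E] {U : Set E} {τ : Cut → E → ℝ} {z : E}

theorem ch_sm (hF : ∀ i, Pair (F i)) (k : Zo) (h : ∀ i ∈ path k, ContDiffOn ℝ ∞ (τ i) U) :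
    ContDiffOn ℝ ∞ (ch F τ k) U := pr_sm hF _ _ h

/-- The sides of a zone on its support. -/
theorem ch_tside (hF : ∀ i, Pair (F i)) (hU : IsOpen U) {k : Zo} {i : Cut} (hi : i ∈ path k)
    (hτ : ContinuousOn (τ i) U) (hz : z ∈ U) (h : z ∈ tsupport (ch F τ k)) :
    (sd k i = true → 0 ≤ τ i z) ∧ (sd k i = false → τ i z ≤ 1) :=
  pr_tside hF hU hi hτ hz h

theorem ch_d1 (hB : PB F B) (hU : IsOpen U) (k : Zo) (hτ : ∀ i ∈ path k, ContDiffOn ℝ ∞ (τ i) U)
    (hz : z ∈ U) (v : E) : |fderiv ℝ (ch F τ k) z v| ≤ B * A1 (path k) τ v z :=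
  pr_d1 hB hU _ _ hτ hz v

theorem ch_d2 (hB : PB F B) (hU : IsOpen U) (k : Zo) (hτ : ∀ i ∈ path k, ContDiffOn ℝ ∞ (τ i) U)
    (hz : z ∈ U) (v w : E) : |fderiv ℝ (fun y => fderiv ℝ (ch F τ k) y v) z w| ≤
      B ^ 2 * (A1 (path k) τ v z * A1 (path k) τ w z) + B * A2 (path k) τ v w z :=
  pr_d2 hB hU _ _ hτ hz v w

/-- Squares: `|D_v χ|² ≤ 5 B² ∑ on_i |D_v τ_i|²`. -/
theorem A1_sq {ι : Type*} (S : Finset ι) (τ : ι → E → ℝ) (v z : E) :
    A1 S τ v z ^ 2 ≤ S.card * ∑ i ∈ S, on (τ i z) * fderiv ℝ (τ i) z v ^ 2 := by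
  unfold A1
  have h := sq_sum_le_card_mul_sum_sq (s := S) (f := fun i => on (τ i z) * |fderiv ℝ (τ i) z v|)
  refine h.trans (le_of_eq ?_)
  congr 1
  refine Finset.sum_congr rfl fun i _ => ?_
  rw [mul_pow, sq_abs, pow_two (on _), on_sq]

theorem ch_sq (hB : PB F B) (hU : IsOpen U) (k : Zo) (hτ : ∀ i ∈ path k, ContDiffOn ℝ ∞ (τ i) U)
    (hz : z ∈ U) (v : E) : fderiv ℝ (ch F τ k) z v ^ 2 ≤
      7 * B ^ 2 * ∑ i ∈ path k, on (τ i z) * fderiv ℝ (τ i) z v ^ 2 := by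
  have h1 := ch_d1 hB hU k hτ hz v
  have h2 := A1_sq (path k) τ v z
  have h3 : ((path k).card : ℝ) ≤ 7 := by
    have : (path k).card ≤ 7 := by cases k <;> decide
    exact_mod_cast this
  have h4 : 0 ≤ ∑ i ∈ path k, on (τ i z) * fderiv ℝ (τ i) z v ^ 2 :=
    Finset.sum_nonneg fun i _ => mul_nonneg (on_nn _) (sq_nonneg _)
  have h5 : 0 ≤ B := zero_le_one.trans hB.one
  calc fderiv ℝ (ch F τ k) z v ^ 2 = |fderiv ℝ (ch F τ k) z v| ^ 2 := (sq_abs _).symm
    _ ≤ (B * A1 (path k) τ v z) ^ 2 := pow_le_pow_left₀ (abs_nonneg _) h1 2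
    _ = B ^ 2 * A1 (path k) τ v z ^ 2 := by ring
    _ ≤ B ^ 2 * (7 * ∑ i ∈ path k, on (τ i z) * fderiv ℝ (τ i) z v ^ 2) := by
        refine mul_le_mul_of_nonneg_left (h2.trans ?_) (by positivity)
        exact mul_le_mul_of_nonneg_right h3 h4
    _ = _ := by ring

end sm

end Vale.Agent.P088.R2.H867.EP
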