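import Vale.Agent.P088.R2.H867.EP.Part

/-!
# P088, stage 3: the payment of the costs of a partition

At one point: `w k = χ_k²`, `∑ w = 1`; a cost which is at most `ε M_k` for EVERY zone `k` that is
alive (`w k ≠ 0`) is at most `ε ∑ w M`.
-/

open Set Filter
open scoped ContDiff Topology

noncomputable section

namespace Vale.Agent.P088.R2.H867.EP

/-- One cost. -/
theorem pay_one {Z : Type*} (zs : Finset Z) {w M : Z → ℝ} {ε c : ℝ} (h1 : ∑ k ∈ zs, w k = 1)
    (h0 : ∀ k ∈ zs, 0 ≤ w k) (h : ∀ k ∈ zs, w k ≠ 0 → c ≤ ε * M k) :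
    c ≤ ε * ∑ k ∈ zs, w k * M k := by
  calc c = ∑ k ∈ zs, w k * c := by rw [← Finset.sum_mul, h1, one_mul]
    _ ≤ ∑ k ∈ zs, w k * (ε * M k) := Finset.sum_le_sum fun k hk => by
        by_cases hw : w k = 0
        · rw [hw, zero_mul, zero_mul]
        · exact mul_le_mul_of_nonneg_left (h k hk hw) (h0 k hk)
    _ = ε * ∑ k ∈ zs, w k * M k := by
        rw [Finset.mul_sum]
        exact Finset.sum_congr rfl fun k _ => by ring

/-- A finite list of costs. -/
theorem pay_sum {Z C : Type*} (zs : Finset Z) (cs : Finset C) {w M : Z → ℝ} {ε : ℝ} {c : C → ℝ}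
    (h1 : ∑ k ∈ zs, w k = 1) (h0 : ∀ k ∈ zs, 0 ≤ w k)
    (h : ∀ i ∈ cs, ∀ k ∈ zs, w k ≠ 0 → c i ≤ ε * M k) :
    ∑ i ∈ cs, c i ≤ cs.card * (ε * ∑ k ∈ zs, w k * M k) := by
  refine (Finset.sum_le_sum fun i hi => pay_one zs h1 h0 (h i hi)).trans (le_of_eq ?_)
  rw [Finset.sum_const, nsmul_eq_mul]

section tree

variable {E : Type*} {F : Cut → Bool → ℝ → ℝ} {τ : Cut → E → ℝ} {z : E}

/-- The zone `k` is alive at `z`. -/
def Alive (F : Cut → Bool → ℝ → ℝ) (τ : Cut → E → ℝ) (k : Zo) (z : E) : Prop := ch F τ k z ≠ 0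

theorem Alive.side (hF : ∀ i, Pair (F i)) {k : Zo} (h : Alive F τ k z) {i : Cut}
    (hi : i ∈ path k) : (sd k i = true → 0 < τ i z) ∧ (sd k i = false → τ i z < 1) :=
  pr_side hF h hi

/-- If the variable of a cut is `≤ 0`, only the zones on the false side are alive. -/
theorem Alive.off0 (hF : ∀ i, Pair (F i)) {k : Zo} (h : Alive F τ k z) {i : Cut}
    (hi : i ∈ path k) (ht : τ i z ≤ 0) : sd k i = false := by
  by_contra hc
  rw [Bool.not_eq_false] at hc
  exact absurd ((h.side hF hi).1 hc) (not_lt.2 ht)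

theorem Alive.off1 (hF : ∀ i, Pair (F i)) {k : Zo} (h : Alive F τ k z) {i : Cut}
    (hi : i ∈ path k) (ht : 1 ≤ τ i z) : sd k i = true := by
  by_contra hc
  rw [Bool.not_eq_true] at hc
  exact absurd ((h.side hF hi).2 hc) (not_lt.2 ht)

/-- **The payment**: the costs `c k i` (zone `k`, cut `i`) occur only where the zone `k` is alive
and the layer of the cut `i` is on. -/
theorem pay_tree (hF : ∀ i, Pair (F i)) {M : Zo → ℝ} {c : Zo → Cut → ℝ} {ε : ℝ}
    (h : ∀ k, Alive F τ k z → ∀ i ∈ path k, 0 < τ i z → τ i z < 1 → ∀ k', Alive F τ k' z →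
      c k i ≤ ε * M k')
    (h0 : ∀ k, ¬Alive F τ k z → ∀ i ∈ path k, c k i ≤ 0)
    (h2 : ∀ k, ∀ i ∈ path k, ¬(0 < τ i z ∧ τ i z < 1) → c k i ≤ 0)
    (hε : 0 ≤ ε) (hM : ∀ k, Alive F τ k z → 0 ≤ M k) :
    ∑ k ∈ zos, ∑ i ∈ path k, c k i ≤ 86 * ε * ∑ k ∈ zos, ch F τ k z ^ 2 * M k := by
  have h1 := ch_sum hF τ z
  have hS : 0 ≤ ∑ k ∈ zos, ch F τ k z ^ 2 * M k := Finset.sum_nonneg fun k _ => by
    by_cases ha : Alive F τ k z
    · exact mul_nonneg (sq_nonneg _) (hM k ha)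
    · have : ch F τ k z = 0 := not_not.1 ha
      rw [this]; simp
  have key : ∀ k, ∀ i ∈ path k, c k i ≤ ε * ∑ k ∈ zos, ch F τ k z ^ 2 * M k := by
    intro k i hi
    by_cases ha : Alive F τ k z
    · by_cases ho : 0 < τ i z ∧ τ i z < 1
      · exact pay_one zos h1 (fun _ _ => sq_nonneg _) fun k' _ hw =>
          h k ha i hi ho.1 ho.2 k' fun hc => hw (by rw [hc]; simp)
      · exact (h2 k i hi ho).trans (mul_nonneg hε hS)
    · exact (h0 k ha i hi).trans (mul_nonneg hε hS)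
  refine (Finset.sum_le_sum fun k _ => Finset.sum_le_sum fun i hi => key k i hi).trans ?_
  simp only [Finset.sum_const, nsmul_eq_mul]
  rw [← Finset.sum_mul]
  have h3 : ∑ k ∈ zos, ((path k).card : ℝ) = 86 := by
    rw [sum_zo]
    have e : ∀ k, ((path k).card : ℝ) = (match k with
      | .iH => 2 | .iF => 3 | .iS => 3 | .RSn => 3 | .RSf => 3
      | .z0 => 4 | .zI => 6 | .z2a => 6 | .zB => 6 | .z2b => 6 | .T1 => 6 | .T2 => 7 | .A1 => 7
      | .P1 => 6 | .P2 => 7 | .A2 => 7 | .Af => 4 : ℕ) := fun k => by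
        congr 1
        cases k <;> decide
    simp only [e]
    norm_num
  rw [h3]
  exact le_of_eq (by ring)

variable [NormedAddCommGroup E] [NormedSpace ℝ E] {B : ℝ} {U : Set E}

/-- Where a zone is not alive, the first derivatives of its cut-off vanish. -/
theorem fd_dead (hF : ∀ i, Pair (F i)) {k : Zo} (h : ¬Alive F τ k z) :
    fderiv ℝ (ch F τ k) z = 0 := by
  have h0 : ch F τ k z = 0 := not_not.1 h
  refine IsLocalMin.fderiv_eq_zero (Filter.Eventually.of_forall fun y => ?_)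
  rw [h0]
  exact ch_nn hF τ k y

open Classical in
/-- Where a zone is alive: `1`, else `0`. -/
def al (F : Cut → Bool → ℝ → ℝ) (τ : Cut → E → ℝ) (k : Zo) (z : E) : ℝ :=
  if Alive F τ k z then 1 else 0

/-- **The squares of the derivatives of the cut-offs, localised.** -/
theorem ch_sq' (hB : PB F B) (hU : IsOpen U) (k : Zo) (hτ : ∀ i ∈ path k, ContDiffOn ℝ ∞ (τ i) U)
    (hz : z ∈ U) (v : E) : fderiv ℝ (ch F τ k) z v ^ 2 ≤
      ∑ i ∈ path k, 7 * B ^ 2 * (al F τ k z * on (τ i z) * fderiv ℝ (τ i) z v ^ 2) := by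
  by_cases ha : Alive F τ k z
  · have h := ch_sq hB hU k hτ hz v
    refine h.trans (le_of_eq ?_)
    rw [Finset.mul_sum]
    refine Finset.sum_congr rfl fun i _ => ?_
    unfold al
    rw [if_pos ha]
    ring
  · rw [fd_dead hB.pair ha]
    unfold al
    simp [if_neg ha]

end tree

end Vale.Agent.P088.R2.H867.EP
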