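import Vale.Agent.P088.R2.H867.EP.Step

/-!
# P088, stage 3: products of steps of cut variables

`τ i` are the cut variables, `b i` the side of the cut, `F i` its pair of steps;
`pr F S b τ = ∏_{i ∈ S} F i (b i) (τ i)`.
`|D_v χ| ≤ B ∑ on_i |D_v τ_i|` and
`|D_w D_v χ| ≤ B² (∑ on_i |D_v τ_i|)(∑ on_i |D_w τ_i|) + B ∑ on_i |D_w D_v τ_i|`, where
`on_i = 1` on the layer `0 < τ_i < 1` and `on_i = 0` off it.
-/

open Set Filter
open scoped ContDiff Topology

noncomputable section

namespace Vale.Agent.P088.R2.H867.EP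

variable {E ι : Type*}

/-- The indicator of the transition layer. -/
def on (t : ℝ) : ℝ := if 0 < t ∧ t < 1 then 1 else 0

theorem on_nn (t : ℝ) : 0 ≤ on t := by unfold on; split_ifs <;> norm_num

theorem on_le (t : ℝ) : on t ≤ 1 := by unfold on; split_ifs <;> norm_num

theorem on_sq (t : ℝ) : on t * on t = on t := by unfold on; split_ifs <;> norm_num

theorem on_one {t : ℝ} (h : 0 < t ∧ t < 1) : on t = 1 := if_pos h

theorem on_zero {t : ℝ} (h : ¬(0 < t ∧ t < 1)) : on t = 0 := if_neg h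

/-- The product of the steps of a path. -/
def pr (F : ι → Bool → ℝ → ℝ) (S : Finset ι) (b : ι → Bool) (τ : ι → E → ℝ) (z : E) : ℝ :=
  ∏ i ∈ S, F i (b i) (τ i z)

variable {F : ι → Bool → ℝ → ℝ} {B : ℝ}

theorem pr_nn (hF : ∀ i, Pair (F i)) (S : Finset ι) (b : ι → Bool) (τ : ι → E → ℝ) (z : E) :
    0 ≤ pr F S b τ z := Finset.prod_nonneg fun i _ => ((hF i).stp (b i)).nn _

theorem pr_le (hF : ∀ i, Pair (F i)) (S : Finset ι) (b : ι → Bool) (τ : ι → E → ℝ) (z : E) :
    pr F S b τ z ≤ 1 :=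
  Finset.prod_le_one (fun i _ => ((hF i).stp (b i)).nn _) fun i _ => ((hF i).stp (b i)).le _

/-- Where the product does not vanish, every cut is on its side. -/
theorem pr_side (hF : ∀ i, Pair (F i)) {S : Finset ι} {b : ι → Bool} {τ : ι → E → ℝ} {z : E}
    (h : pr F S b τ z ≠ 0) {i : ι} (hi : i ∈ S) :
    (b i = true → 0 < τ i z) ∧ (b i = false → τ i z < 1) := by
  have h1 : F i (b i) (τ i z) ≠ 0 := Finset.prod_ne_zero_iff.1 h i hi
  constructor
  · intro hb
    by_contra hc
    apply h1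
    rw [hb]
    exact (hF i).t0 _ (not_lt.1 hc)
  · intro hb
    by_contra hc
    apply h1
    rw [hb]
    exact (hF i).f1 _ (not_lt.1 hc)

variable [NormedAddCommGroup E] [NormedSpace ℝ E]

theorem pr_sm (hF : ∀ i, Pair (F i)) {U : Set E} (S : Finset ι) (b : ι → Bool) {τ : ι → E → ℝ}
    (h : ∀ i ∈ S, ContDiffOn ℝ ∞ (τ i) U) : ContDiffOn ℝ ∞ (pr F S b τ) U := by
  unfold pr
  exact contDiffOn_prod fun i hi => ((hF i).stp (b i)).sm.comp_contDiffOn (h i hi)

/-- On the support (closure), every cut is on its closed side. -/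
theorem pr_tside (hF : ∀ i, Pair (F i)) {S : Finset ι} {b : ι → Bool} {τ : ι → E → ℝ} {U : Set E}
    (hU : IsOpen U) {i : ι} (hi : i ∈ S) (hτ : ContinuousOn (τ i) U) {z : E} (hz : z ∈ U)
    (h : z ∈ tsupport (pr F S b τ)) :
    (b i = true → 0 ≤ τ i z) ∧ (b i = false → τ i z ≤ 1) := by
  have hca : ContinuousAt (τ i) z := hτ.continuousAt (hU.mem_nhds hz)
  constructor
  · intro hb
    by_contra hc
    push Not at hc
    have h1 : ∀ᶠ w in 𝓝 z, τ i w < 0 := hca.eventually_lt continuousAt_const hc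
    refine (mem_closure_iff_frequently.1 h) ?_
    filter_upwards [h1] with w hw hc2
    exact absurd ((pr_side hF hc2 hi).1 hb) (not_lt.2 hw.le)
  · intro hb
    by_contra hc
    push Not at hc
    have h1 : ∀ᶠ w in 𝓝 z, 1 < τ i w := continuousAt_const.eventually_lt hca hc
    refine (mem_closure_iff_frequently.1 h) ?_
    filter_upwards [h1] with w hw hc2
    exact absurd ((pr_side hF hc2 hi).2 hb) (not_lt.2 hw.le)

/-- First order sums. -/
def A1 (S : Finset ι) (τ : ι → E → ℝ) (v z : E) : ℝ := ∑ i ∈ S, on (τ i z) * |fderiv ℝ (τ i) z v|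

/-- Second order sums. -/
def A2 (S : Finset ι) (τ : ι → E → ℝ) (v w z : E) : ℝ :=
  ∑ i ∈ S, on (τ i z) * |fderiv ℝ (fun y => fderiv ℝ (τ i) y v) z w|

theorem A1_nn (S : Finset ι) (τ : ι → E → ℝ) (v z : E) : 0 ≤ A1 S τ v z :=
  Finset.sum_nonneg fun _ _ => mul_nonneg (on_nn _) (abs_nonneg _)

theorem A2_nn (S : Finset ι) (τ : ι → E → ℝ) (v w z : E) : 0 ≤ A2 S τ v w z :=
  Finset.sum_nonneg fun _ _ => mul_nonneg (on_nn _) (abs_nonneg _)

theorem A1_mono {S S' : Finset ι} (h : S ⊆ S') (τ : ι → E → ℝ) (v z : E) :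
    A1 S τ v z ≤ A1 S' τ v z :=
  Finset.sum_le_sum_of_subset_of_nonneg h fun _ _ _ => mul_nonneg (on_nn _) (abs_nonneg _)

theorem A2_mono {S S' : Finset ι} (h : S ⊆ S') (τ : ι → E → ℝ) (v w z : E) :
    A2 S τ v w z ≤ A2 S' τ v w z :=
  Finset.sum_le_sum_of_subset_of_nonneg h fun _ _ _ => mul_nonneg (on_nn _) (abs_nonneg _)

section der

variable {U : Set E} {τ : ι → E → ℝ} {f g : E → ℝ} {z v w : E}

theorem df (hU : IsOpen U) (hf : ContDiffOn ℝ ∞ f U) (hz : z ∈ U) : DifferentiableAt ℝ f z :=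
  ((hf z hz).contDiffAt (hU.mem_nhds hz)).differentiableAt (by simp)

theorem sfd (hU : IsOpen U) (hf : ContDiffOn ℝ ∞ f U) (v : E) :
    ContDiffOn ℝ ∞ (fun y => fderiv ℝ f y v) U :=
  (hf.fderiv_of_isOpen hU (by norm_num)).clm_apply contDiffOn_const

/-- The first derivative of a composition. -/
theorem fd_comp {H : ℝ → ℝ} (hH : ContDiff ℝ ∞ H) (hf : DifferentiableAt ℝ f z) (v : E) :
    fderiv ℝ (fun y => H (f y)) z v = iteratedDeriv 1 H (f z) * fderiv ℝ f z v := by
  have d1 : DifferentiableAt ℝ H (f z) := hH.differentiable (by simp) _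
  have h3 : HasFDerivAt (fun z => H (f z)) (deriv H (f z) • fderiv ℝ f z) z :=
    d1.hasDerivAt.comp_hasFDerivAt z hf.hasFDerivAt
  rw [h3.fderiv, iteratedDeriv_one]
  simp

theorem it1_sm {H : ℝ → ℝ} (hH : ContDiff ℝ ∞ H) : ContDiff ℝ ∞ (iteratedDeriv 1 H) := by
  rw [iteratedDeriv_one]
  exact (contDiff_infty_iff_deriv.1 hH).2

/-- The second derivative of a composition. -/
theorem fd2_comp {H : ℝ → ℝ} (hH : ContDiff ℝ ∞ H) (hU : IsOpen U) (hf : ContDiffOn ℝ ∞ f U)
    (hz : z ∈ U) (v w : E) :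
    fderiv ℝ (fun y => fderiv ℝ (fun y => H (f y)) y v) z w =
      iteratedDeriv 2 H (f z) * fderiv ℝ f z w * fderiv ℝ f z v +
        iteratedDeriv 1 H (f z) * fderiv ℝ (fun y => fderiv ℝ f y v) z w := by
  have e : (fun y => fderiv ℝ (fun y => H (f y)) y v) =ᶠ[𝓝 z]
      fun y => iteratedDeriv 1 H (f y) * fderiv ℝ f y v := by
    filter_upwards [hU.mem_nhds hz] with y hy using fd_comp hH (df hU hf hy) v
  rw [e.fderiv_eq]
  have d1 : DifferentiableAt ℝ (fun y => iteratedDeriv 1 H (f y)) z :=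
    ((it1_sm hH).differentiable (by simp) _).comp z (df hU hf hz)
  have d2 : DifferentiableAt ℝ (fun y => fderiv ℝ f y v) z := df hU (sfd hU hf v) hz
  rw [fderiv_fun_mul d1 d2]
  simp only [_root_.add_apply, _root_.smul_apply, smul_eq_mul]
  rw [fd_comp (it1_sm hH) (df hU hf hz) w]
  have e2 : iteratedDeriv 1 (iteratedDeriv 1 H) (f z) = iteratedDeriv 2 H (f z) := by
    rw [iteratedDeriv_one, iteratedDeriv_one, iteratedDeriv_succ, iteratedDeriv_one]
  rw [e2]
  ring

/-- The second derivative of a product. -/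
theorem fd2_mul (hU : IsOpen U) (hf : ContDiffOn ℝ ∞ f U) (hg : ContDiffOn ℝ ∞ g U)
    (hz : z ∈ U) (v w : E) :
    fderiv ℝ (fun y => fderiv ℝ (fun y => f y * g y) y v) z w =
      fderiv ℝ (fun y => fderiv ℝ f y v) z w * g z + fderiv ℝ f z v * fderiv ℝ g z w +
        fderiv ℝ f z w * fderiv ℝ g z v + f z * fderiv ℝ (fun y => fderiv ℝ g y v) z w := by
  have e : (fun y => fderiv ℝ (fun y => f y * g y) y v) =ᶠ[𝓝 z]
      fun y => fderiv ℝ f y v * g y + f y * fderiv ℝ g y v := by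
    filter_upwards [hU.mem_nhds hz] with y hy
    rw [fderiv_fun_mul (df hU hf hy) (df hU hg hy)]
    simp only [_root_.add_apply, _root_.smul_apply, smul_eq_mul]
    ring
  rw [e.fderiv_eq]
  have d1 := df hU (sfd hU hf v) hz
  have d2 := df hU (sfd hU hg v) hz
  have d3 := df hU hf hz
  have d4 := df hU hg hz
  rw [fderiv_fun_add (d1.fun_mul d4) (d3.fun_mul d2), fderiv_fun_mul d1 d4, fderiv_fun_mul d3 d2]
  simp only [_root_.add_apply, _root_.smul_apply, smul_eq_mul]
  ring

/-- One factor: the first derivative. -/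
theorem fac_d1 {H : ℝ → ℝ} (hH : Stp H) (hB : ∀ j ≤ 2, ∀ t, |iteratedDeriv j H t| ≤ B)
    (hf : DifferentiableAt ℝ f z) (v : E) :
    |fderiv ℝ (fun y => H (f y)) z v| ≤ B * (on (f z) * |fderiv ℝ f z v|) := by
  rw [fd_comp hH.sm hf, abs_mul]
  by_cases h : 0 < f z ∧ f z < 1
  · rw [on_one h, one_mul]
    exact mul_le_mul_of_nonneg_right (hB 1 (by norm_num) _) (abs_nonneg _)
  · have h2 : f z ≤ 0 ∨ 1 ≤ f z := by
      by_contra hc
      push Not at hc
      exact h hc
    rw [hH.vanish le_rfl h2, on_zero h]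
    simp

/-- One factor: the second derivative. -/
theorem fac_d2 {H : ℝ → ℝ} (hH : Stp H) (hB : ∀ j ≤ 2, ∀ t, |iteratedDeriv j H t| ≤ B)
    (hU : IsOpen U) (hf : ContDiffOn ℝ ∞ f U) (hz : z ∈ U) (v w : E) :
    |fderiv ℝ (fun y => fderiv ℝ (fun y => H (f y)) y v) z w| ≤
      B * (on (f z) * |fderiv ℝ f z v| * |fderiv ℝ f z w|) +
        B * (on (f z) * |fderiv ℝ (fun y => fderiv ℝ f y v) z w|) := by
  rw [fd2_comp hH.sm hU hf hz]
  by_cases h : 0 < f z ∧ f z < 1
  · rw [on_one h, one_mul, one_mul]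
    refine (abs_add_le _ _).trans ?_
    rw [abs_mul, abs_mul, abs_mul]
    have h1 := hB 1 (by norm_num) (f z)
    have h2 := hB 2 le_rfl (f z)
    have h3 := mul_le_mul_of_nonneg_right h2
      (mul_nonneg (abs_nonneg (fderiv ℝ f z v)) (abs_nonneg (fderiv ℝ f z w)))
    have h4 := mul_le_mul_of_nonneg_right h1
      (abs_nonneg (fderiv ℝ (fun y => fderiv ℝ f y v) z w))
    nlinarith [h3, h4]
  · have h2 : f z ≤ 0 ∨ 1 ≤ f z := by
      by_contra hc
      push Not at hc
      exact h hc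
    rw [hH.vanish le_rfl h2, hH.vanish (by norm_num : 1 ≤ 2) h2, on_zero h]
    simp

/-- **First derivatives of the products.** -/
theorem pr_d1 (hB : PB F B) (hU : IsOpen U)
    (b : ι → Bool) (S : Finset ι) (hτ : ∀ i ∈ S, ContDiffOn ℝ ∞ (τ i) U) (hz : z ∈ U) (v : E) :
    |fderiv ℝ (pr F S b τ) z v| ≤ B * A1 S τ v z := by
  classical
  induction S using Finset.induction_on with
  | empty =>
    have : pr F ∅ b τ = fun _ : E => (1 : ℝ) := funext fun z => by simp [pr]
    rw [this]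
    simp [A1]
  | insert i S hi ih =>
    have ih' := ih fun j hj => hτ j (Finset.mem_insert_of_mem hj)
    have hs := hτ i (Finset.mem_insert_self i S)
    have hS := pr_sm hB.pair S b fun j hj => hτ j (Finset.mem_insert_of_mem hj)
    have e : pr F (insert i S) b τ = fun z => F i (b i) (τ i z) * pr F S b τ z :=
      funext fun z => by simp only [pr]; rw [Finset.prod_insert hi]
    have d1 : DifferentiableAt ℝ (fun y => F i (b i) (τ i y)) z :=
      df hU (((hB.pair i).stp (b i)).sm.comp_contDiffOn hs) hz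
    rw [e, fderiv_fun_mul d1 (df hU hS hz)]
    simp only [_root_.add_apply, _root_.smul_apply, smul_eq_mul]
    have e2 : A1 (insert i S) τ v z = on (τ i z) * |fderiv ℝ (τ i) z v| + A1 S τ v z := by
      simp only [A1]; rw [Finset.sum_insert hi]
    rw [e2, mul_add, add_comm]
    refine (abs_add_le _ _).trans (add_le_add ?_ ?_)
    · rw [abs_mul, mul_comm]
      refine le_trans ?_ (fac_d1 ((hB.pair i).stp (b i)) (fun j hj => hB.bd i (b i) j hj) (df hU hs hz) v)
      refine mul_le_of_le_one_right (abs_nonneg _) ?_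
      rw [abs_of_nonneg (pr_nn hB.pair _ _ _ _)]
      exact pr_le hB.pair _ _ _ _
    · rw [abs_mul]
      refine le_trans ?_ ih'
      exact mul_le_of_le_one_left (abs_nonneg _) (((hB.pair i).stp (b i)).abs_le _)

/-- **Second derivatives of the products.** -/
theorem pr_d2 (hB : PB F B) (hU : IsOpen U)
    (b : ι → Bool) (S : Finset ι) (hτ : ∀ i ∈ S, ContDiffOn ℝ ∞ (τ i) U) (hz : z ∈ U) (v w : E) :
    |fderiv ℝ (fun y => fderiv ℝ (pr F S b τ) y v) z w| ≤
      B ^ 2 * (A1 S τ v z * A1 S τ w z) + B * A2 S τ v w z := by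
  classical
  induction S using Finset.induction_on with
  | empty =>
    have : pr F ∅ b τ = fun _ : E => (1 : ℝ) := funext fun z => by simp [pr]
    rw [this]
    simp [A1, A2]
  | insert i S hi ih =>
    have ih' := ih fun j hj => hτ j (Finset.mem_insert_of_mem hj)
    have hs := hτ i (Finset.mem_insert_self i S)
    have hS := pr_sm hB.pair S b fun j hj => hτ j (Finset.mem_insert_of_mem hj)
    have hF : ContDiffOn ℝ ∞ (fun y => F i (b i) (τ i y)) U :=
      ((hB.pair i).stp (b i)).sm.comp_contDiffOn hs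
    have e : pr F (insert i S) b τ = fun z => F i (b i) (τ i z) * pr F S b τ z :=
      funext fun z => by simp only [pr]; rw [Finset.prod_insert hi]
    rw [e, fd2_mul hU hF hS hz v w]
    have e1 : ∀ v, A1 (insert i S) τ v z = on (τ i z) * |fderiv ℝ (τ i) z v| + A1 S τ v z :=
      fun v => by simp only [A1]; rw [Finset.sum_insert hi]
    have e2 : A2 (insert i S) τ v w z =
        on (τ i z) * |fderiv ℝ (fun y => fderiv ℝ (τ i) y v) z w| + A2 S τ v w z := by
      simp only [A2]; rw [Finset.sum_insert hi]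
    have k1 := fac_d1 ((hB.pair i).stp (b i)) (fun j hj => hB.bd i (b i) j hj) (df hU hs hz) v
    have k2 := fac_d1 ((hB.pair i).stp (b i)) (fun j hj => hB.bd i (b i) j hj) (df hU hs hz) w
    have k3 := fac_d2 ((hB.pair i).stp (b i)) (fun j hj => hB.bd i (b i) j hj) hU hs hz v w
    have k4 := pr_d1 hB hU b S (fun j hj => hτ j (Finset.mem_insert_of_mem hj)) hz v
    have k5 := pr_d1 hB hU b S (fun j hj => hτ j (Finset.mem_insert_of_mem hj)) hz w
    have k6 : |pr F S b τ z| ≤ 1 := by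
      rw [abs_of_nonneg (pr_nn hB.pair _ _ _ _)]; exact pr_le hB.pair _ _ _ _
    have k7 := ((hB.pair i).stp (b i)).abs_le (τ i z)
    have n1 := A1_nn S τ v z
    have n2 := A1_nn S τ w z
    have n3 := A2_nn S τ v w z
    have o1 := on_nn (τ i z)
    have o2 := on_sq (τ i z)
    set F1v := fderiv ℝ (fun y => F i (b i) (τ i y)) z v
    set F1w := fderiv ℝ (fun y => F i (b i) (τ i y)) z w
    set F2 := fderiv ℝ (fun y => fderiv ℝ (fun y => F i (b i) (τ i y)) y v) z w
    set G1v := fderiv ℝ (pr F S b τ) z v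
    set G1w := fderiv ℝ (pr F S b τ) z w
    set G2 := fderiv ℝ (fun y => fderiv ℝ (pr F S b τ) y v) z w
    set tv := |fderiv ℝ (τ i) z v|
    set tw := |fderiv ℝ (τ i) z w|
    set tt := |fderiv ℝ (fun y => fderiv ℝ (τ i) y v) z w|
    set o := on (τ i z)
    have h1 : 1 ≤ B := hB.one
    have hB0 : 0 ≤ B := by linarith
    have htv : 0 ≤ tv := abs_nonneg _
    have htw : 0 ≤ tw := abs_nonneg _
    have htt : 0 ≤ tt := abs_nonneg _
    rw [e1, e1, e2]
    have m1 : |F2 * pr F S b τ z| ≤ B ^ 2 * (o * tv * (o * tw)) + B * (o * tt) := by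
      rw [abs_mul]
      refine (mul_le_of_le_one_right (abs_nonneg _) k6).trans (k3.trans ?_)
      have q1 : o * tv * (o * tw) = o * tv * tw := by
        calc o * tv * (o * tw) = (o * o) * tv * tw := by ring
          _ = o * tv * tw := by rw [o2]
      rw [q1]
      have q2 : 0 ≤ o * tv * tw := by positivity
      have q3 : B * (o * tv * tw) ≤ B ^ 2 * (o * tv * tw) :=
        mul_le_mul_of_nonneg_right (by nlinarith) q2
      linarith
    have m2 : |F1v * G1w| ≤ B ^ 2 * (o * tv * A1 S τ w z) := by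
      rw [abs_mul]
      calc |F1v| * |G1w| ≤ (B * (o * tv)) * (B * A1 S τ w z) :=
            mul_le_mul k1 k5 (abs_nonneg _) (by positivity)
        _ = _ := by ring
    have m3 : |F1w * G1v| ≤ B ^ 2 * (A1 S τ v z * (o * tw)) := by
      rw [abs_mul]
      calc |F1w| * |G1v| ≤ (B * (o * tw)) * (B * A1 S τ v z) :=
            mul_le_mul k2 k4 (abs_nonneg _) (by positivity)
        _ = _ := by ring
    have m4 : |F i (b i) (τ i z) * G2| ≤
        B ^ 2 * (A1 S τ v z * A1 S τ w z) + B * A2 S τ v w z := by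
      rw [abs_mul]
      exact (mul_le_of_le_one_left (abs_nonneg _) k7).trans ih'
    calc |F2 * pr F S b τ z + F1v * G1w + F1w * G1v + F i (b i) (τ i z) * G2|
        ≤ |F2 * pr F S b τ z| + |F1v * G1w| + |F1w * G1v| + |F i (b i) (τ i z) * G2| := by
          refine (abs_add_le _ _).trans (add_le_add_left ?_ _)
          refine (abs_add_le _ _).trans (add_le_add_left ?_ _)
          exact abs_add_le _ _
      _ ≤ _ := by
          refine (add_le_add (add_le_add (add_le_add m1 m2) m3) m4).trans (le_of_eq ?_)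
          ring

end der

end Vale.Agent.P088.R2.H867.EP
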