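import Vale.Agent.P088.R2.H867.EP.Pay
import Vale.Agent.P088.R2.H932.EP.Cuts

/-!
# P088, stage 3: the cut variables of the partition

Data: the level `u`, `ρ = r² / 2`, `K = Φ''`. `cv P u ρ X` are the variables of the cuts, `X` are
those of the tubes, the passes and the cuts `inf`, `hi`, `fs` at infinity.
-/

open Set Filter
open scoped ContDiff Topology

noncomputable section

namespace Vale.Agent.P088.R2.H867.EP

open Vale.Agent.P088.R2.H932.EP (tauR tauU tauT)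

variable {E : Type*}

/-- The variable of a cut in `r`, from `a` to `b`. -/
def tauD (a b : ℝ) (ρ : E → ℝ) (z : E) : ℝ := (2 * ρ z - a ^ 2) / (b ^ 2 - a ^ 2)

/-- The variable of the core cut: `m = 2 e^u ρ` from `M₁` to `(2 Λ - 1) M₁`, `M₁ = M₁(u)`. -/
def tauM (Λ : ℝ) (M₁ : ℝ → ℝ) (u ρ : E → ℝ) (z : E) : ℝ :=
  (Real.log (1 + 2 * Real.exp (u z) * ρ z / M₁ (u z)) - Real.log 2) / Real.log Λ

/-- The parameters of the cuts. -/
structure CP where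
  /-- the cut `rs`: `VS(u)` from `0` to `1` -/
  VS : ℝ → ℝ
  /-- the cut `rS` from `q₁` to `q₂` -/
  q₁ : ℝ
  q₂ : ℝ
  /-- the cut `r` from `c₀` to `2 c₀` -/
  c₀ : ℝ
  /-- the cut `e0`: `V₀(u)` from `u₀` to `u₀ + w₀` -/
  u₀ : ℝ
  w₀ : ℝ
  V₀ : ℝ → ℝ
  /-- the cut `eB`: `VB(u)` from `uB` to `uB + wB` -/
  uB : ℝ
  wB : ℝ
  VB : ℝ → ℝ
  /-- the cut `t`: `E r²` from `ct K` to `2 ct K` -/
  ct : ℝ
  K : ℝ → ℝ
  /-- the cut `co`: `E r²` from `M₁(u)` to `(2 Λ - 1) M₁(u)` -/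
  Λ : ℝ
  M₁ : ℝ → ℝ
  /-- the cut `far` from `r₁` to `r₂` -/
  r₁ : ℝ
  r₂ : ℝ
  /-- the cut `rp` from `p₁` to `p₂` -/
  p₁ : ℝ
  p₂ : ℝ

/-- Admissible parameters. -/
structure CP.Ok (P : CP) : Prop where
  VSs : ContDiff ℝ ∞ P.VS
  q₁ : 0 < P.q₁
  q₂ : P.q₁ < P.q₂
  c₀ : 0 < P.c₀
  w₀ : 0 < P.w₀
  wB : 0 < P.wB
  ct : 0 < P.ct
  Ks : ContDiff ℝ ∞ P.K
  Kp : ∀ u, 0 < P.K u
  V₀s : ContDiff ℝ ∞ P.V₀
  VBs : ContDiff ℝ ∞ P.VB
  Λ : 1 < P.Λ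
  M₁s : ContDiff ℝ ∞ P.M₁
  M₁p : ∀ u, 0 < P.M₁ u
  r₁ : 0 < P.r₁
  r₂ : P.r₁ < P.r₂
  p₁ : 0 < P.p₁
  p₂ : P.p₁ < P.p₂

/-- The variables of the cuts. -/
def cv (P : CP) (u ρ : E → ℝ) (X : Cut → E → ℝ) : Cut → E → ℝ
  | .rs => tauU 0 1 fun z => P.VS (u z)
  | .rS => tauD P.q₁ P.q₂ ρ
  | .r => tauR P.c₀ ρ
  | .e0 => tauU P.u₀ P.w₀ fun z => P.V₀ (u z)
  | .eB => tauU P.uB P.wB fun z => P.VB (u z)
  | .t => tauT P.ct P.K u ρ
  | .co => tauM P.Λ P.M₁ u ρ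
  | .far => tauD P.r₁ P.r₂ ρ
  | .rp => tauD P.p₁ P.p₂ ρ
  | .inf => X .inf
  | .hi => X .hi
  | .fs => X .fs
  | .T1 => X .T1
  | .T2 => X .T2
  | .P1 => X .P1
  | .P2 => X .P2

section side

variable {P : CP} {u ρ : E → ℝ} {z : E}

theorem sq_lt {a b : ℝ} (ha : 0 < a) (hb : a < b) : 0 < b ^ 2 - a ^ 2 := by nlinarith

theorem tauD_le {a b : ℝ} (ha : 0 < a) (hb : a < b) (h : tauD a b ρ z ≤ 1) : 2 * ρ z ≤ b ^ 2 := by
  unfold tauD at h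
  rw [div_le_one (sq_lt ha hb)] at h
  linarith

theorem tauD_ge {a b : ℝ} (ha : 0 < a) (hb : a < b) (h : 0 ≤ tauD a b ρ z) : a ^ 2 ≤ 2 * ρ z := by
  unfold tauD at h
  have h1 := sq_lt ha hb
  by_contra hc
  have h2 : (2 * ρ z - a ^ 2) / (b ^ 2 - a ^ 2) < 0 := div_neg_of_neg_of_pos (by linarith) h1
  linarith

theorem tauR_le {c : ℝ} (hc : 0 < c) (h : tauR c ρ z ≤ 1) : 2 * ρ z ≤ 4 * c ^ 2 := by
  unfold tauR at h
  rw [div_le_one (by positivity)] at h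
  linarith

theorem tauR_ge {c : ℝ} (hc : 0 < c) (h : 0 ≤ tauR c ρ z) : c ^ 2 ≤ 2 * ρ z := by
  unfold tauR at h
  by_contra hcon
  have h2 : (2 * ρ z - c ^ 2) / (3 * c ^ 2) < 0 := div_neg_of_neg_of_pos (by linarith) (by positivity)
  linarith

theorem tauU_le {a w : ℝ} (hw : 0 < w) (h : tauU a w u z ≤ 1) : u z ≤ a + w := by
  unfold tauU at h
  rw [div_le_one hw] at h
  linarith

theorem tauU_ge {a w : ℝ} (hw : 0 < w) (h : 0 ≤ tauU a w u z) : a ≤ u z := by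
  unfold tauU at h
  by_contra hc
  have h2 : (u z - a) / w < 0 := div_neg_of_neg_of_pos (by linarith) hw
  linarith

theorem tauT_le {c : ℝ} {K : ℝ → ℝ} (hc : 0 < c) (hK : 0 < K (u z)) (h : tauT c K u ρ z ≤ 1) :
    Real.exp (u z) * (2 * ρ z) ≤ 2 * (c * K (u z)) := by
  unfold tauT at h
  have h1 : 2 * Real.exp (u z) * ρ z / (c * K (u z)) ≤ 2 := by linarith
  rw [div_le_iff₀ (by positivity)] at h1
  linarith

theorem tauT_ge {c : ℝ} {K : ℝ → ℝ} (hc : 0 < c) (hK : 0 < K (u z)) (h : 0 ≤ tauT c K u ρ z) :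
    c * K (u z) ≤ Real.exp (u z) * (2 * ρ z) := by
  unfold tauT at h
  have h1 : 1 ≤ 2 * Real.exp (u z) * ρ z / (c * K (u z)) := by linarith
  rw [le_div_iff₀ (by positivity)] at h1
  linarith

theorem tauM_le {Λ : ℝ} {M₁ : ℝ → ℝ} (hΛ : 1 < Λ) (hm : 0 < M₁ (u z)) (h0 : 0 ≤ ρ z)
    (h : tauM Λ M₁ u ρ z ≤ 1) : Real.exp (u z) * (2 * ρ z) ≤ 2 * Λ * M₁ (u z) := by
  have hL := Real.log_pos hΛ
  have he := Real.exp_pos (u z)
  have h1 : 0 ≤ 2 * Real.exp (u z) * ρ z / M₁ (u z) := by positivity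
  unfold tauM at h
  rw [div_le_one hL, sub_le_iff_le_add, ← Real.log_mul (by linarith) (by norm_num),
    Real.log_le_log_iff (by linarith) (by linarith)] at h
  have h2 : 2 * Real.exp (u z) * ρ z / M₁ (u z) ≤ 2 * Λ := by linarith
  rw [div_le_iff₀ hm] at h2
  linarith

theorem tauM_ge {Λ : ℝ} {M₁ : ℝ → ℝ} (hΛ : 1 < Λ) (hm : 0 < M₁ (u z)) (h0 : 0 ≤ ρ z)
    (h : 0 ≤ tauM Λ M₁ u ρ z) : M₁ (u z) ≤ Real.exp (u z) * (2 * ρ z) := by
  have hL := Real.log_pos hΛ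
  have he := Real.exp_pos (u z)
  have h1 : 0 ≤ 2 * Real.exp (u z) * ρ z / M₁ (u z) := by positivity
  unfold tauM at h
  have h2 : 0 ≤ Real.log (1 + 2 * Real.exp (u z) * ρ z / M₁ (u z)) - Real.log 2 := by
    by_contra hcon
    have := div_neg_of_neg_of_pos (not_le.1 hcon) hL
    linarith
  have h3 : Real.log 2 ≤ Real.log (1 + 2 * Real.exp (u z) * ρ z / M₁ (u z)) := by linarith
  rw [Real.log_le_log_iff (by norm_num) (by linarith)] at h3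
  have h4 : 1 ≤ 2 * Real.exp (u z) * ρ z / M₁ (u z) := by linarith
  rw [le_div_iff₀ hm] at h4
  linarith

theorem tauM_zero {Λ : ℝ} {M₁ : ℝ → ℝ} (hΛ : 1 < Λ) (h0 : ρ z = 0) : tauM Λ M₁ u ρ z < 0 := by
  unfold tauM
  rw [h0, mul_zero, zero_div, add_zero, Real.log_one, zero_sub]
  exact div_neg_of_neg_of_pos (by linarith [Real.log_pos (by norm_num : (1 : ℝ) < 2)])
    (Real.log_pos hΛ)

end side

section sm

variable [NormedAddCommGroup E] [NormedSpace ℝ E] {P : CP} {u ρ : E → ℝ} {X : Cut → E → ℝ}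
  {U : Set E} {z v : E}

/-- The cut variables are smooth. -/
theorem cv_sm (hP : P.Ok) (hu : ContDiffOn ℝ ∞ u U) (hρ : ContDiffOn ℝ ∞ ρ U)
    (h0 : ∀ z ∈ U, 0 ≤ ρ z) (hX : ∀ i, ContDiffOn ℝ ∞ (X i) U) (i : Cut) :
    ContDiffOn ℝ ∞ (cv P u ρ X i) U := by
  have hc : ∀ c : ℝ, ContDiffOn ℝ ∞ (fun _ : E => c) U := fun c => contDiffOn_const
  cases i
  case inf => exact hX .inf
  case hi => exact hX .hi
  case fs => exact hX .fs
  case rs => exact ((hP.VSs.comp_contDiffOn hu).sub (hc _)).div (hc _) fun z _ => one_ne_zero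
  case rS => exact (((hc 2).mul hρ).sub (hc _)).div (hc _) fun z _ => (sq_lt hP.q₁ hP.q₂).ne'
  case T1 => exact hX .T1
  case T2 => exact hX .T2
  case P1 => exact hX .P1
  case P2 => exact hX .P2
  case r =>
    have h3 : (0 : ℝ) < 3 * P.c₀ ^ 2 := by
      have := hP.c₀
      positivity
    exact (((hc 2).mul hρ).sub (hc _)).div (hc _) fun z _ => h3.ne'
  case e0 => exact ((hP.V₀s.comp_contDiffOn hu).sub (hc _)).div (hc _) fun z _ => hP.w₀.ne'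
  case eB => exact ((hP.VBs.comp_contDiffOn hu).sub (hc _)).div (hc _) fun z _ => hP.wB.ne'
  case t =>
    have hK : ContDiffOn ℝ ∞ (fun z => P.K (u z)) U := hP.Ks.comp_contDiffOn hu
    exact ((((hc 2).mul hu.exp).mul hρ).div ((hc _).mul hK) fun z _ =>
      (mul_pos hP.ct (hP.Kp _)).ne').sub (hc 1)
  case co =>
    have hm2 : ContDiffOn ℝ ∞ (fun z => P.M₁ (u z)) U := hP.M₁s.comp_contDiffOn hu
    have hm : ContDiffOn ℝ ∞ (fun z => 1 + 2 * Real.exp (u z) * ρ z / P.M₁ (u z)) U :=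
      (hc 1).add ((((hc 2).mul hu.exp).mul hρ).div hm2 fun z _ => (hP.M₁p _).ne')
    refine ((hm.log fun z hz => ?_).sub (hc _)).div (hc _) fun z _ =>
      (Real.log_pos hP.Λ).ne'
    have h1 := Real.exp_pos (u z)
    have h2 := h0 z hz
    have h3 := hP.M₁p (u z)
    positivity
  case far => exact (((hc 2).mul hρ).sub (hc _)).div (hc _) fun z _ => (sq_lt hP.r₁ hP.r₂).ne'
  case rp => exact (((hc 2).mul hρ).sub (hc _)).div (hc _) fun z _ => (sq_lt hP.p₁ hP.p₂).ne'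

end sm

end Vale.Agent.P088.R2.H867.EP
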